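import Vale.Agent.P246.R2.H429.Defs4
import Vale.Agent.P246.T.MX
import Vale.Agent.P246.T.MS
import Vale.Agent.P246.T.CL
import Vale.Agent.P246.T.FM
import Vale.Agent.P246.T.PR
import Vale.Agent.P246.T.CC
import Mathlib.Analysis.Normed.Module.Connected

/-! # P246: the chains of a covering after attaching two-cells with constant attaching maps
(row TW4, helper888) -/

set_option linter.all false

namespace Vale.Agent.P246.R2.H888W

open Topology Metric Set Vale.Agent.P246 Vale.Agent.P246.T Vale.Agent.P246.H429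

section Alg

variable {R M : Type} [Ring R] [AddCommGroup M] [Module R M]

/-- one more generator -/
theorem rank_sup {P A : Submodule R M} (hPA : P ≤ A) {z : M} (hz : ∀ r : R, r • z ∈ A → r = 0)
    {m : ℕ} (hP : Nonempty (P ≃ₗ[R] (Fin m → R))) :
    Nonempty ((P ⊔ Submodule.span R {z} : Submodule R M) ≃ₗ[R] (Fin (m + 1) → R)) := by
  obtain ⟨u⟩ := hP
  let f : (P × R) →ₗ[R] M := P.subtype.coprod (LinearMap.toSpanSingleton R M z)
  have hf : Function.Injective f := by
    rw [injective_iff_map_eq_zero]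
    rintro ⟨x, r⟩ h
    have h1 : (x : M) + r • z = 0 := h
    have hr : r = 0 := hz r (by
      rw [eq_neg_of_add_eq_zero_right h1]
      exact Submodule.neg_mem _ (hPA x.2))
    subst hr
    rw [zero_smul, add_zero] at h1
    exact Prod.ext (Subtype.ext h1) rfl
  have hrange : LinearMap.range f = P ⊔ Submodule.span R {z} := by
    rw [LinearMap.range_coprod, Submodule.range_subtype, LinearMap.range_toSpanSingleton]
  have e := (LinearEquiv.ofInjective f hf).trans (LinearEquiv.ofEq _ _ hrange)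
  exact ⟨e.symm.trans (((LinearEquiv.prodCongr u (LinearEquiv.refl R R)).trans
    (LinearEquiv.prodComm R _ _)).trans (Fin.consLinearEquiv R (fun _ : Fin (m + 1) => R)))⟩

/-- still disjoint -/
theorem disj_sup {P Z A : Submodule R M} (hPA : P ≤ A) (hZA : Z ≤ A) (hd : Disjoint P Z) {z : M}
    (hz : ∀ r : R, r • z ∈ A → r = 0) : Disjoint P (Z ⊔ Submodule.span R {z}) := by
  rw [Submodule.disjoint_def] at hd ⊢
  intro x hx hx'
  obtain ⟨y, hy, w, hw, rfl⟩ := Submodule.mem_sup.1 hx'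
  obtain ⟨r, rfl⟩ := Submodule.mem_span_singleton.1 hw
  have hr : r = 0 := hz r (by
    have h1 : r • z = (y + r • z) - y := by abel
    rw [h1]
    exact Submodule.sub_mem _ (hPA hx) (hZA hy))
  subst hr
  rw [zero_smul, add_zero] at hx ⊢
  exact hd y hx hy

end Alg

section

variable {F : Type} [TopologicalSpace F]

/-- the push forward of a chain along a map which is constant on the set carrying the chain -/
theorem push_const {N : Type} [TopologicalSpace N] {S : Set N} {n : ℕ} {Ψ : C(N, F)} {e : F}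
    (hΨ : ∀ x ∈ S, Ψ x = e) {c : Ch n N} (hc : c ∈ Con S n) : ∃ m : ℤ, push Ψ n c = m • ksx n e := by
  have h : push Ψ n c ∈ Submodule.span ℤ {(ksx n e : Ch n F)} := by
    refine SD.supp_map (S := {σ : C(Dl (n + 1), N) | ∀ x, σ x ∈ S})
      (T := Submodule.span ℤ {(ksx n e : Ch n F)}) (push Ψ n) (fun σ hσ => ?_) hc
    rw [push_single]
    have e1 : Ψ.comp σ = ContinuousMap.const (Dl (n + 1)) e := by
      ext x
      exact hΨ _ (hσ x)
    rw [e1]
    exact Submodule.mem_span_singleton_self _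
  obtain ⟨m, hm⟩ := Submodule.mem_span_singleton.1 h
  exact ⟨m, hm.symm⟩

theorem bd_ksx2 (e : F) : bd 1 (ksx 2 e) = ksx 1 e := by
  rw [PR.bd_ksx, if_neg (by decide), one_smul]

theorem ksx_mem {A : Set F} {e : F} (he : e ∈ A) (n : ℕ) : ksx n e ∈ Con A n :=
  Finsupp.single_mem_supported ℤ _ fun _ => he

end

section

variable {G W F : Type} [Group G] [TopologicalSpace W] [T2Space W]
  [TopologicalSpace F] [MulAction G F] [ContinuousConstSMul G F] {q : C(F, W)}

/-- a lift of a square which is constant on the boundary is constant on the boundary -/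
theorem lift_const (hq : IsQuotientCoveringMap q G) {Φ : C(Dk 2, W)} {Ψ : C(Dk 2, F)}
    (hΨ : ∀ x, q (Ψ x) = Φ x) {a : W} (ha : ∀ z : Dk 2, ‖(z : Fin 2 → ℝ)‖ = 1 → Φ z = a) :
    ∃ e : F, q e = a ∧ ∀ x ∈ bdk 2, Ψ x = e := by
  have hpre : PreconnectedSpace (sphere (0 : Fin 2 → ℝ) 1) := by
    rw [← isPreconnected_iff_preconnectedSpace]
    refine isPreconnected_sphere ?_ 0 1
    rw [rank_fin_fun]
    norm_num
  let g : sphere (0 : Fin 2 → ℝ) 1 → F := fun x => Ψ ⟨x, sphere_subset_closedBall x.2⟩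
  have hg : Continuous g := Ψ.continuous.comp (Continuous.subtype_mk continuous_subtype_val _)
  have hn : ∀ x : sphere (0 : Fin 2 → ℝ) 1, ‖(x : Fin 2 → ℝ)‖ = 1 := fun x =>
    mem_sphere_zero_iff_norm.1 x.2
  have hc : ∀ x y, q (g x) = q (g y) := fun x y => by
    change q (Ψ _) = q (Ψ _)
    rw [hΨ, hΨ, ha _ (hn x), ha _ (hn y)]
  have hconst := hq.isCoveringMap.const_of_comp hg hc
  have h1 : ‖(fun _ => 1 : Fin 2 → ℝ)‖ = 1 := by
    rw [pi_norm_const]
    exact norm_one
  let x0 : sphere (0 : Fin 2 → ℝ) 1 := ⟨fun _ => 1, mem_sphere_zero_iff_norm.2 h1⟩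
  refine ⟨g x0, ?_, fun x hx => ?_⟩
  · change q (Ψ _) = a
    rw [hΨ, ha _ (hn x0)]
  · exact hconst ⟨(x : Fin 2 → ℝ), mem_sphere_zero_iff_norm.2 hx⟩ x0

theorem step (hms : SpecMS) (hcl : SpecCL) (hf : SpecFund) (hq : IsQuotientCoveringMap q G)
    {C A B : Set W} {Φ : C(Dk 2, W)} {a : W} (hA : IsClosed A) (hCA : C ⊆ A)
    (haC : a ∈ C) (hΦ : ∀ z : Dk 2, ‖(z : Fin 2 → ℝ)‖ = 1 → Φ z = a) (h : Attach 2 A B Φ)
    {P : ∀ n, Submodule (ZG G) (SC G n F)} {t : ℕ} {Z : Submodule (ZG G) (SC G 2 F)}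
    (hZ : Nonempty (Z ≃ₗ[ZG G] (Fin t → ZG G))) (hZ0 : ∀ z ∈ Z, SC.d G 1 F z = 0)
    (hd : Disjoint (P 2) Z)
    (hP : IsFinModel (fun n => SC G n F) (fun n => SC.d G n F) (Step.SA hq A)
      (Function.update P 2 (P 2 ⊔ Z))) :
    ∃ Z' : Submodule (ZG G) (SC G 2 F), Nonempty (Z' ≃ₗ[ZG G] (Fin (t + 1) → ZG G)) ∧
      (∀ z ∈ Z', SC.d G 1 F z = 0) ∧ Disjoint (P 2) Z' ∧
      IsFinModel (fun n => SC G n F) (fun n => SC.d G n F) (Step.SA hq B)
        (Function.update P 2 (P 2 ⊔ Z')) := by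
  obtain ⟨Ψ, hΨ⟩ := MX.exists_lift hq Φ
  obtain ⟨ζ, hζ⟩ := hf.1 2
  obtain ⟨e, he, hΨe⟩ := lift_const hq hΨ hΦ
  obtain ⟨m, hm⟩ := push_const (n := 1) hΨe hζ.cyc
  let z : SC G 2 F := SC.mk G (push Ψ 2 ζ - m • ksx 2 e)
  have hzd : SC.d G 1 F z = 0 := by
    apply SC.un_inj
    rw [SC.un_d, SC.un_zero]
    change bd 1 (push Ψ 2 ζ - m • ksx 2 e) = 0
    rw [map_sub, map_smul, push_bd, hm, bd_ksx2, sub_self]
  have heA : e ∈ q ⁻¹' A := by
    change q e ∈ A
    rw [he]
    exact hCA haC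
  have hz : z.un - push Ψ 2 ζ ∈ Con (q ⁻¹' A) 2 := by
    change (push Ψ 2 ζ - m • ksx 2 e) - push Ψ 2 ζ ∈ Con (q ⁻¹' A) 2
    rw [sub_sub_cancel_left]
    exact Submodule.neg_mem _ (Submodule.smul_mem _ _ (ksx_mem heA 2))
  have hz' : DRel (fun n => SC G n F) (fun n => SC.d G n F) (Function.update P 2 (P 2 ⊔ Z)) 2 z := by
    change SC.d G 1 F z ∈ _
    rw [hzd]
    exact Submodule.zero_mem _
  obtain ⟨h1, h2⟩ := Step.step hms CC.main2 hcl hq Ψ hA h hΨ hζ hP.toIsModel z hz hz'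
  have hle : P 2 ⊔ Z ≤ Step.SA hq A 2 := by
    have := hP.le 2
    rwa [Function.update_self] at this
  have hPA : P 2 ≤ Step.SA hq A 2 := le_sup_left.trans hle
  have hZA : Z ≤ Step.SA hq A 2 := le_sup_right.trans hle
  have hfun : Function.update (Function.update P 2 (P 2 ⊔ Z)) 2
      (Function.update P 2 (P 2 ⊔ Z) 2 ⊔ Submodule.span (ZG G) {z}) =
      Function.update P 2 (P 2 ⊔ (Z ⊔ Submodule.span (ZG G) {z})) := by
    rw [Function.update_idem, Function.update_self, sup_assoc]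
  rw [hfun] at h1
  refine ⟨Z ⊔ Submodule.span (ZG G) {z}, rank_sup hZA h2 hZ, ?_, disj_sup hPA hZA hd h2,
    { toIsModel := h1, free := fun k => ?_, fin := fun k => ?_, bdd := ?_ }⟩
  · intro x hx
    obtain ⟨y, hy, w, hw, rfl⟩ := Submodule.mem_sup.1 hx
    obtain ⟨r, rfl⟩ := Submodule.mem_span_singleton.1 hw
    rw [map_add, map_smul, hzd, smul_zero, add_zero]
    exact hZ0 y hy
  · by_cases hk : k = 2
    · subst hk
      rw [Function.update_self, ← sup_assoc]
      have h3 := hP.free 2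
      rw [Function.update_self] at h3
      exact MX.free_sup hle h2 h3
    · rw [Function.update_of_ne hk]
      have h3 := hP.free k
      rwa [Function.update_of_ne hk] at h3
  · by_cases hk : k = 2
    · subst hk
      rw [Function.update_self, ← sup_assoc]
      have h3 := hP.fin 2
      rw [Function.update_self] at h3
      exact MX.finite_sup z h3
    · rw [Function.update_of_ne hk]
      have h3 := hP.fin k
      rwa [Function.update_of_ne hk] at h3
  · obtain ⟨N, hN⟩ := hP.bdd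
    refine ⟨max N 2, fun k hk => ?_⟩
    have hk2 : k ≠ 2 := by have := le_max_right N 2; omega
    rw [Function.update_of_ne hk2]
    have h3 := hN k (lt_of_le_of_lt (le_max_left N 2) hk)
    rwa [Function.update_of_ne hk2] at h3

theorem sph_sub {C B : Set W} {t : ℕ} (h : Sph C B t) : C ⊆ B := by
  induction h with
  | base => exact subset_rfl
  | cell Φ a _ _ _ h ih =>
    rw [h.eq]
    exact ih.trans subset_union_left

theorem main' (hms : SpecMS) (hcl : SpecCL) (hf : SpecFund) (hq : IsQuotientCoveringMap q G)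
    {C B : Set W} {t : ℕ} (hC : IsClosed C) (h : Sph C B t)
    {P : ∀ n, Submodule (ZG G) (SC G n F)}
    (hP : IsFinModel (fun n => SC G n F) (fun n => SC.d G n F) (Step.SA hq C) P) :
    IsClosed B ∧ ∃ Z : Submodule (ZG G) (SC G 2 F), Nonempty (Z ≃ₗ[ZG G] (Fin t → ZG G)) ∧
      (∀ z ∈ Z, SC.d G 1 F z = 0) ∧ Disjoint (P 2) Z ∧
      IsFinModel (fun n => SC G n F) (fun n => SC.d G n F) (Step.SA hq B)
        (Function.update P 2 (P 2 ⊔ Z)) := by
  induction h with
  | base =>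
    refine ⟨hC, ⊥, ⟨LinearEquiv.ofSubsingleton _ _⟩, ?_, disjoint_bot_right, ?_⟩
    · intro z hz
      rw [(Submodule.mem_bot _).1 hz, map_zero]
    · rw [sup_bot_eq, Function.update_eq_self]
      exact hP
  | cell Φ a hs ha hΦ h ih =>
    obtain ⟨hA, Z, h1, h2, h3, h4⟩ := ih
    refine ⟨?_, step hms hcl hf hq hA (sph_sub hs) ha hΦ h h1 h2 h3 h4⟩
    rw [h.eq]
    exact hA.union (isCompact_range Φ.continuous).isClosed

end

/-- **ROW TW4.** -/
theorem main : SpecChW := by
  intro G W F _ _ _ _ _ _ q hq C t hC h P hP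
  obtain ⟨-, Z, h1, h2, h3, h4⟩ := main' MS.main CL.main (FM.main PR.main CC.main1 CL.main) hq hC h hP
  have e : (Step.SA hq univ : ∀ n, Submodule (ZG G) (SC G n F)) = fun _ => ⊤ := by
    funext n
    rw [eq_top_iff]
    intro x _
    rw [Step.mem_SA, preimage_univ]
    exact PR.Con_univ _
  rw [e] at h4
  exact ⟨Z, h1, h2, h3, h4⟩

end Vale.Agent.P246.R2.H888W
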