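import Mathlib

/-!
# P246: finitely generated virtually abelian groups are virtually free abelian of finite rank
(helper888)
-/

set_option autoImplicit false

namespace Vale.Agent.P246.R2.H888

/-- **A finitely generated virtually abelian group has a free abelian subgroup of finite rank and
finite index.** -/
theorem rowH (G : Type) [Group G] (hG : Group.FG G)
    (hN : ∃ N : Subgroup G, N.FiniteIndex ∧ ∀ a ∈ N, ∀ b ∈ N, a * b = b * a) :
    ∃ (h : ℕ) (N : Subgroup G), N.FiniteIndex ∧ Nonempty (N ≃* Multiplicative (Fin h → ℤ)) := by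
  obtain ⟨N, hfi, hcomm⟩ := hN
  have := hfi
  have := hG
  let cg : CommGroup N :=
    { (inferInstance : Group N) with
      mul_comm := fun a b => Subtype.ext (hcomm a a.2 b b.2) }
  have hfg : Group.FG N := inferInstance
  have : AddGroup.FG (Additive N) := by infer_instance
  obtain ⟨n, ι, hι, p, hp, e, ⟨E⟩⟩ := AddCommGroup.equiv_free_prod_directSum_zmod (Additive N)
  have := hι
  classical
  have hz : ∀ i, NeZero (p i ^ e i) := fun i => ⟨pow_ne_zero _ (hp i).ne_zero⟩
  have hfin : Finite (DirectSum ι fun i => ZMod (p i ^ e i)) :=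
    Finite.of_equiv _ (DirectSum.addEquivProd fun i => ZMod (p i ^ e i)).symm.toEquiv
  let ψ₀ : Additive N →+ DirectSum ι fun i => ZMod (p i ^ e i) :=
    (AddMonoidHom.snd _ _).comp E.toAddMonoidHom
  let ψ : N →* Multiplicative (DirectSum ι fun i => ZMod (p i ^ e i)) :=
    AddMonoidHom.toMultiplicativeRight ψ₀
  let L : (Fin n → ℤ) ≃+ (Fin n →₀ ℤ) :=
    (Finsupp.linearEquivFunOnFinite ℤ ℤ (Fin n)).symm.toAddEquiv
  let φ₀ : (Fin n → ℤ) →+ Additive N :=
    E.symm.toAddMonoidHom.comp ((AddMonoidHom.inl _ _).comp L.toAddMonoidHom)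
  have hφ₀ : Function.Injective φ₀ := by
    intro a b hab
    have h1 : E.symm (L a, 0) = E.symm (L b, 0) := hab
    have h2 := E.symm.injective h1
    exact L.injective (congrArg Prod.fst h2)
  let φ₁ : Multiplicative (Fin n → ℤ) →* N := AddMonoidHom.toMultiplicativeLeft φ₀
  have hφ₁ : Function.Injective φ₁ := fun a b hab => hφ₀ hab
  have hr : φ₁.range = ψ.ker := by
    ext x
    rw [MonoidHom.mem_range, MonoidHom.mem_ker]
    constructor
    · rintro ⟨y, rfl⟩
      change (E (E.symm (L y.toAdd, 0))).2 = 0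
      rw [AddEquiv.apply_symm_apply]
    · intro hx
      have hx' : (E (Additive.ofMul x)).2 = 0 := hx
      refine ⟨Multiplicative.ofAdd (L.symm (E (Additive.ofMul x)).1), ?_⟩
      change E.symm (L (L.symm (E (Additive.ofMul x)).1), 0) = Additive.ofMul x
      rw [AddEquiv.apply_symm_apply, ← hx', Prod.mk.eta, AddEquiv.symm_apply_apply]
  have hk : φ₁.range.FiniteIndex := by
    rw [hr]
    infer_instance
  let φ : Multiplicative (Fin n → ℤ) →* G := N.subtype.comp φ₁
  have hφ : Function.Injective φ := fun a b hab => hφ₁ (N.subtype_injective hab)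
  refine ⟨n, φ.range, ?_, ⟨(MonoidHom.ofInjective hφ).symm⟩⟩
  have hle : φ.range ≤ N := by
    rintro _ ⟨y, rfl⟩
    exact (φ₁ y).2
  constructor
  rw [← Subgroup.relIndex_mul_index hle]
  refine mul_ne_zero ?_ hfi.index_ne_zero
  have hs : φ.range.subgroupOf N = φ₁.range := by
    ext x
    rw [Subgroup.mem_subgroupOf, MonoidHom.mem_range, MonoidHom.mem_range]
    constructor
    · rintro ⟨y, hy⟩
      exact ⟨y, Subtype.ext hy⟩
    · rintro ⟨y, rfl⟩
      exact ⟨y, rfl⟩
  rw [Subgroup.relIndex, hs]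
  exact hk.index_ne_zero

end Vale.Agent.P246.R2.H888
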