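import Mathlib

set_option linter.all false

namespace Vale.Agent.P246.R2.H888

open MonoidAlgebra

/-- Chains of primes lift along an injective integral extension. -/
theorem lift_series {A B : Type} [CommRing A] [CommRing B] (f : A →+* B)
    (hinj : Function.Injective f) (hint : f.IsIntegral) (k : ℕ) :
    ∀ s : LTSeries (PrimeSpectrum A), s.length = k →
      ∃ t : LTSeries (PrimeSpectrum B), t.length = k ∧
        PrimeSpectrum.comap f (RelSeries.last t) = RelSeries.last s := by
  letI : Algebra A B := f.toAlgebra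
  haveI : Algebra.IsIntegral A B := ⟨hint⟩
  have hker : RingHom.ker (algebraMap A B) = ⊥ := (RingHom.injective_iff_ker_eq_bot f).1 hinj
  induction k with
  | zero =>
    intro s hs
    obtain ⟨Q, -, hQ, hQ'⟩ := Ideal.exists_ideal_over_prime_of_isIntegral (R := A) (S := B)
      (RelSeries.last s).asIdeal ⊥ (by
        rw [← RingHom.ker_eq_comap_bot, hker]
        exact bot_le)
    refine ⟨RelSeries.singleton _ ⟨Q, hQ⟩, rfl, ?_⟩
    apply PrimeSpectrum.ext
    exact hQ'
  | succ k ih =>
    intro s hs
    have hs0 : s.length ≠ 0 := by omega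
    obtain ⟨t, ht, hlast⟩ := ih s.eraseLast (by simp [hs])
    have hlt : RelSeries.last s.eraseLast < RelSeries.last s :=
      s.eraseLast_last_rel_last hs0
    obtain ⟨Q, hQt, hQ, hQ'⟩ := Ideal.exists_ideal_over_prime_of_isIntegral (R := A) (S := B)
      (RelSeries.last s).asIdeal (RelSeries.last t).asIdeal (by
        have h1 : Ideal.comap (algebraMap A B) (RelSeries.last t).asIdeal =
          (RelSeries.last s.eraseLast).asIdeal := by
          rw [← hlast]
          rfl
        rw [h1]
        exact hlt.le)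
    have hne : RelSeries.last t < (⟨Q, hQ⟩ : PrimeSpectrum B) := by
      refine lt_of_le_of_ne hQt (fun h => ?_)
      have h2 : PrimeSpectrum.comap f (RelSeries.last t) = RelSeries.last s := by
        rw [h]
        apply PrimeSpectrum.ext
        exact hQ'
      rw [hlast] at h2
      exact hlt.ne h2
    refine ⟨t.snoc ⟨Q, hQ⟩ hne, by simp [ht], ?_⟩
    rw [RelSeries.last_snoc]
    apply PrimeSpectrum.ext
    exact hQ'

/-- The dimension does not drop under injective integral extensions. -/
theorem dim_le_of_integral {A B : Type} [CommRing A] [CommRing B] (f : A →+* B)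
    (hinj : Function.Injective f) (hint : f.IsIntegral) : ringKrullDim A ≤ ringKrullDim B := by
  refine iSup_le (fun s => ?_)
  obtain ⟨t, ht, -⟩ := lift_series f hinj hint s.length s rfl
  rw [← ht]
  exact Order.LTSeries.length_le_krullDim t

/-- A localisation-like map does not raise the dimension. -/
theorem dim_le_of_units {A B : Type} [CommRing A] [CommRing B] (f : A →+* B)
    (h : ∀ b : B, ∃ u a : A, IsUnit (f u) ∧ b * f u = f a) : ringKrullDim B ≤ ringKrullDim A := by
  refine Order.krullDim_le_of_strictMono (PrimeSpectrum.comap f) (fun p q hpq => ?_)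
  refine lt_of_le_of_ne (fun a ha => hpq.le ha) (fun he => ?_)
  apply hpq.not_ge
  intro b hb
  obtain ⟨u, a, hu, hba⟩ := h b
  have h1 : f a ∈ q.asIdeal := by
    rw [← hba]
    exact Ideal.mul_mem_right _ _ hb
  have h2 : a ∈ (PrimeSpectrum.comap f q).asIdeal := h1
  rw [← he] at h2
  have h3 : f a ∈ p.asIdeal := h2
  rw [← hba] at h3
  rcases p.isPrime.mem_or_mem h3 with h4 | h4
  · exact h4
  · exact absurd (Ideal.eq_top_of_isUnit_mem _ h4 hu) p.isPrime.ne_top

/-- The dimension of the group ring of `ℤ^h`. -/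
theorem dim_laurent (h : ℕ) :
    ringKrullDim (MonoidAlgebra ℤ (Multiplicative (Fin h → ℤ))) ≤ ((h + 1 : ℕ) : WithBot ℕ∞) := by
  classical
  let e : (Fin h → ℤ) → MonoidAlgebra ℤ (Multiplicative (Fin h → ℤ)) :=
    fun z => MonoidAlgebra.single (Multiplicative.ofAdd z) (1 : ℤ)
  have hmul : ∀ z w, e z * e w = e (z + w) := by
    intro z w
    simp only [e, MonoidAlgebra.single_mul_single, one_mul, ofAdd_add]
  have hzero : e 0 = 1 := rfl
  have hpow : ∀ z (n : ℕ), e z ^ n = e (n • z) := by
    intro z n
    induction n with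
    | zero => rw [pow_zero, zero_smul, hzero]
    | succ n ih => rw [pow_succ, ih, hmul, succ_nsmul]
  have hunit : ∀ z, IsUnit (e z) := fun z =>
    IsUnit.of_mul_eq_one (e (-z)) (by rw [hmul, add_neg_cancel, hzero])
  let φ : MvPolynomial (Fin h) ℤ →+* MonoidAlgebra ℤ (Multiplicative (Fin h → ℤ)) :=
    MvPolynomial.eval₂Hom (Int.castRingHom _) (fun i => e (Pi.single i 1))
  let mon : (Fin h → ℕ) → MvPolynomial (Fin h) ℤ := fun v => ∏ i, MvPolynomial.X i ^ v i
  have hmon : ∀ v, φ (mon v) = e (fun i => (v i : ℤ)) := by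
    intro v
    have h1 : φ (mon v) = ∏ i, e (v i • Pi.single i 1) := by
      simp only [φ, mon, map_prod, map_pow, MvPolynomial.eval₂Hom_X', hpow]
    have h2 : ∀ (s : Finset (Fin h)) (w : Fin h → (Fin h → ℤ)),
        ∏ i ∈ s, e (w i) = e (∑ i ∈ s, w i) := by
      intro s w
      induction s using Finset.induction_on with
      | empty => simp [hzero]
      | insert a s ha ih => rw [Finset.prod_insert ha, Finset.sum_insert ha, ih, hmul]
    rw [h1, h2]
    congr 1
    ext j
    simp [Finset.sum_apply, Pi.single_apply]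
  have key : ∀ b : MonoidAlgebra ℤ (Multiplicative (Fin h → ℤ)), ∃ (v : Fin h → ℕ)
      (a : MvPolynomial (Fin h) ℤ), b * φ (mon v) = φ a := by
    intro b
    induction b using MonoidAlgebra.induction_linear with
    | zero => exact ⟨0, 0, by simp⟩
    | add x y hx hy =>
      obtain ⟨v, a, ha⟩ := hx
      obtain ⟨w, c, hc⟩ := hy
      refine ⟨v + w, a * mon w + c * mon v, ?_⟩
      have hvw : φ (mon (v + w)) = φ (mon v) * φ (mon w) := by
        rw [hmon, hmon, hmon, hmul]
        congr 1
      rw [hvw, map_add, map_mul, map_mul, ← ha, ← hc]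
      ring
    | single z r =>
      refine ⟨fun i => (-(Multiplicative.toAdd z i)).toNat,
        MvPolynomial.C r * mon (fun i => (Multiplicative.toAdd z i).toNat), ?_⟩
      have hC : φ (MvPolynomial.C r) = (r : MonoidAlgebra ℤ (Multiplicative (Fin h → ℤ))) := by
        simp [φ]
      have hs : (MonoidAlgebra.single z r : MonoidAlgebra ℤ (Multiplicative (Fin h → ℤ))) =
          (r : MonoidAlgebra ℤ (Multiplicative (Fin h → ℤ))) * e (Multiplicative.toAdd z) := by
        rw [← zsmul_eq_mul]
        simp only [e]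
        rw [MonoidAlgebra.smul_single]
        simp
      rw [map_mul, hC, hmon, hmon, hs, mul_assoc, hmul]
      congr 2
      ext i
      simp only [Pi.add_apply]
      omega
  have h1 : ringKrullDim (MonoidAlgebra ℤ (Multiplicative (Fin h → ℤ))) ≤
      ringKrullDim (MvPolynomial (Fin h) ℤ) := by
    refine dim_le_of_units φ (fun b => ?_)
    obtain ⟨v, a, ha⟩ := key b
    exact ⟨mon v, a, by rw [hmon]; exact hunit _, ha⟩
  refine h1.trans ?_
  rw [MvPolynomial.ringKrullDim_of_isNoetherianRing]
  have h2 : ringKrullDim ℤ ≤ 1 := Ring.krullDimLE_iff.1 inferInstance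
  rw [Nat.card_eq_fintype_card, Fintype.card_fin]
  push_cast
  rw [add_comm]
  gcongr

/-- Invariants of a finite group acting on a finitely generated commutative ring `B` which has an
injective integral extension of dimension at most `n`. -/
theorem inv_noeth (B : Type) [CommRing B] [Algebra.FiniteType ℤ B] (Q : Type) [Group Q] [Finite Q]
    [MulSemiringAction Q B] (C : Type) [CommRing C] (f : B →+* C) (hf : Function.Injective f)
    (hfi : f.IsIntegral) (n : ℕ) (hn : ringKrullDim C ≤ ((n : ℕ) : WithBot ℕ∞)) :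
    IsNoetherianRing (FixedPoints.subring B Q) ∧
      Module.Finite (FixedPoints.subring B Q) B ∧
      ∀ p : Ideal (FixedPoints.subring B Q), p.IsPrime → p.height ≤ n := by
  haveI hinv : Algebra.IsInvariant (FixedPoints.subring B Q) B Q :=
    ⟨fun b hb => ⟨⟨b, hb⟩, rfl⟩⟩
  haveI hint : Algebra.IsIntegral (FixedPoints.subring B Q) B := Algebra.IsInvariant.isIntegral _ _ Q
  haveI hft : Algebra.FiniteType (FixedPoints.subring B Q) B :=
    Algebra.FiniteType.of_restrictScalars_finiteType ℤ _ B
  have hfin : Module.Finite (FixedPoints.subring B Q) B := Algebra.IsIntegral.finite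
  have hA : (⊤ : Subalgebra ℤ (FixedPoints.subring B Q)).FG :=
    fg_of_fg_of_fg ℤ (FixedPoints.subring B Q) B Algebra.FiniteType.out hfin.fg_top
      Subtype.val_injective
  haveI hft2 : Algebra.FiniteType ℤ (FixedPoints.subring B Q) := ⟨hA⟩
  refine ⟨Algebra.FiniteType.isNoetherianRing ℤ _, hfin, fun p hp => ?_⟩
  have h1 : ringKrullDim (FixedPoints.subring B Q) ≤ ringKrullDim B :=
    dim_le_of_integral (algebraMap (FixedPoints.subring B Q) B) Subtype.val_injective
      (fun x => hint.isIntegral x)
  have h2 : ringKrullDim B ≤ ringKrullDim C := dim_le_of_integral f hf hfi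
  have h3 : (p.height : WithBot ℕ∞) ≤ ((n : ℕ) : WithBot ℕ∞) :=
    Ideal.height_le_ringKrullDim_of_isPrime.trans (h1.trans (h2.trans hn))
  exact_mod_cast h3

/-- The group ring of a group with a commutative normal subgroup (given as `ι : K →* G`) of finite
index, where `K` is of finite exponent in a group `F` whose group ring has dimension at most `n`. -/
theorem va_aux (G : Type) [Group G] (K : Type) [CommGroup K] (hK : Group.FG K) (ι : K →* G)
    (hι : Function.Injective ι) (φ : G →* MulAut K) (hφ : ∀ g k, ι (φ g k) = g * ι k * g⁻¹)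
    (T : Finset G) (hT : ∀ g, ∃ k, ∃ t ∈ T, g = ι k * t)
    (F : Type) [CommGroup F] (κ : K →* F) (hκ : Function.Injective κ)
    (m : ℕ) (hm : 0 < m) (hmF : ∀ x : F, ∃ k, κ k = x ^ m) (n : ℕ)
    (hn : ringKrullDim (MonoidAlgebra ℤ F) ≤ ((n : ℕ) : WithBot ℕ∞)) :
    ∃ (A : Type) (_ : CommRing A) (_ : IsNoetherianRing A) (_ : Algebra A (MonoidAlgebra ℤ G)),
      Module.Finite A (MonoidAlgebra ℤ G) ∧ ∀ p : Ideal A, p.IsPrime → p.height ≤ n := by
  classical
  have hφ1 : ∀ k, φ (ι k) = 1 := by
    intro k
    ext k'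
    have h := hφ (ι k) k'
    rw [← map_mul, ← map_inv, ← map_mul, mul_comm k k', mul_inv_cancel_right] at h
    exact hι h
  haveI hQ : Finite φ.range := by
    refine Set.Finite.subset (Finset.finite_toSet (T.image φ)) ?_
    rintro _ ⟨g, rfl⟩
    obtain ⟨k, t, ht, rfl⟩ := hT g
    rw [map_mul, hφ1, one_mul]
    exact Finset.mem_coe.2 (Finset.mem_image_of_mem _ ht)
  letI act : MulSemiringAction φ.range (MonoidAlgebra ℤ K) :=
    MulSemiringAction.compHom (MonoidAlgebra ℤ K)
      ((MonoidAlgebra.domCongrAut (R := ℤ) (A := ℤ) (M := K)).comp φ.range.subtype)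
  have hact : ∀ (q : φ.range) (b : MonoidAlgebra ℤ K), q • b = MonoidAlgebra.domCongr ℤ ℤ q.1 b :=
    fun q b => rfl
  haveI : Monoid.FG K := (Group.fg_iff_monoid_fg).1 hK
  have hft0 := MonoidAlgebra.finiteType_of_fg (R := ℤ) (M := K)
  have e0 : (Ring.toIntAlgebra (MonoidAlgebra ℤ K)) = MonoidAlgebra.algebra :=
    Subsingleton.elim _ _
  have hft : @Algebra.FiniteType ℤ (MonoidAlgebra ℤ K) _ _ (Ring.toIntAlgebra _) := by
    rw [e0]
    exact hft0
  let c : MonoidAlgebra ℤ K →+* MonoidAlgebra ℤ F := MonoidAlgebra.mapDomainRingHom ℤ κ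
  have hc : ∀ k r, c (MonoidAlgebra.single k r) = MonoidAlgebra.single (κ k) r := by
    intro k r
    simp [c]
  have hcinj : Function.Injective c := MonoidAlgebra.mapDomain_injective hκ
  have hcint : c.IsIntegral := by
    intro x
    induction x using MonoidAlgebra.induction_linear with
    | zero =>
      have h0 := c.isIntegralElem_map (x := 0)
      rwa [map_zero] at h0
    | add x y hx hy => exact RingHom.IsIntegralElem.add c hx hy
    | single g r =>
      have hr : (MonoidAlgebra.single g r : MonoidAlgebra ℤ F) =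
          c ((r : ℤ) : MonoidAlgebra ℤ K) * MonoidAlgebra.single g 1 := by
        rw [map_intCast, ← zsmul_eq_mul, MonoidAlgebra.smul_single, smul_eq_mul, mul_one]
      rw [hr]
      refine RingHom.IsIntegralElem.mul c (c.isIntegralElem_map) ?_
      obtain ⟨k, hk⟩ := hmF g
      refine ⟨Polynomial.X ^ m - Polynomial.C (MonoidAlgebra.single k 1),
        Polynomial.monic_X_pow_sub_C _ hm.ne', ?_⟩
      rw [Polynomial.eval₂_sub, Polynomial.eval₂_pow, Polynomial.eval₂_X, Polynomial.eval₂_C, hc,
        hk, MonoidAlgebra.single_pow, one_pow, sub_self]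
  obtain ⟨h1, h2, h3⟩ := @inv_noeth (MonoidAlgebra ℤ K) _ hft φ.range _ _ _ (MonoidAlgebra ℤ F) _
    c hcinj hcint n hn
  let j : MonoidAlgebra ℤ K →+* MonoidAlgebra ℤ G := MonoidAlgebra.mapDomainRingHom ℤ ι
  have hj : ∀ k r, j (MonoidAlgebra.single k r) = MonoidAlgebra.single (ι k) r := by
    intro k r
    simp [j]
  have hconj : ∀ (g : G) (b : MonoidAlgebra ℤ K),
      MonoidAlgebra.single g (1 : ℤ) * j b = j (MonoidAlgebra.domCongr ℤ ℤ (φ g) b) *
        MonoidAlgebra.single g (1 : ℤ) := by
    intro g b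
    induction b using MonoidAlgebra.induction_linear with
    | zero => simp only [map_zero, mul_zero, zero_mul]
    | add a b ha hb => simp only [map_add, mul_add, add_mul, ha, hb]
    | single k r =>
      rw [MonoidAlgebra.domCongr_single, hj, hj, MonoidAlgebra.single_mul_single,
        MonoidAlgebra.single_mul_single, one_mul, mul_one, hφ, inv_mul_cancel_right]
  let j' : FixedPoints.subring (MonoidAlgebra ℤ K) φ.range →+* MonoidAlgebra ℤ G :=
    j.comp (Subring.subtype _)
  have hcen : ∀ (a : FixedPoints.subring (MonoidAlgebra ℤ K) φ.range) (x : MonoidAlgebra ℤ G),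
      j' a * x = x * j' a := by
    intro a x
    have ha : ∀ g : G, MonoidAlgebra.single g (1 : ℤ) * j' a = j' a * MonoidAlgebra.single g 1 := by
      intro g
      have h := hconj g a.1
      have h' : MonoidAlgebra.domCongr ℤ ℤ (φ g) a.1 = a.1 := a.2 ⟨φ g, g, rfl⟩
      rw [h'] at h
      exact h
    induction x using MonoidAlgebra.induction_linear with
    | zero => simp only [mul_zero, zero_mul]
    | add x y hx hy => simp only [mul_add, add_mul, hx, hy]
    | single g r =>
      have hr : (MonoidAlgebra.single g r : MonoidAlgebra ℤ G) = r • MonoidAlgebra.single g 1 := by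
        rw [MonoidAlgebra.smul_single, smul_eq_mul, mul_one]
      rw [hr, mul_smul_comm, smul_mul_assoc, ha]
  letI alg : Algebra (FixedPoints.subring (MonoidAlgebra ℤ K) φ.range) (MonoidAlgebra ℤ G) :=
    RingHom.toAlgebra' j' hcen
  letI mod : Module (MonoidAlgebra ℤ K) (MonoidAlgebra ℤ G) := Module.compHom _ j
  haveI tow : IsScalarTower (FixedPoints.subring (MonoidAlgebra ℤ K) φ.range) (MonoidAlgebra ℤ K)
      (MonoidAlgebra ℤ G) := by
    refine ⟨fun a b x => ?_⟩
    change j (a.1 * b) * x = j a.1 * (j b * x)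
    rw [map_mul, mul_assoc]
  refine ⟨FixedPoints.subring (MonoidAlgebra ℤ K) φ.range, inferInstance, h1, alg, ?_, h3⟩
  haveI : Module.Finite (MonoidAlgebra ℤ K) (MonoidAlgebra ℤ G) := by
    refine ⟨⟨T.image (fun t => MonoidAlgebra.single t (1 : ℤ)), ?_⟩⟩
    rw [eq_top_iff]
    rintro x -
    induction x using MonoidAlgebra.induction_linear with
    | zero => exact Submodule.zero_mem _
    | add x y hx hy => exact Submodule.add_mem _ hx hy
    | single g r =>
      obtain ⟨k, t, ht, rfl⟩ := hT g
      have hs : (MonoidAlgebra.single (ι k * t) r : MonoidAlgebra ℤ G) =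
          (MonoidAlgebra.single k r : MonoidAlgebra ℤ K) • MonoidAlgebra.single t (1 : ℤ) := by
        change _ = j (MonoidAlgebra.single k r) * MonoidAlgebra.single t (1 : ℤ)
        rw [hj, MonoidAlgebra.single_mul_single, mul_one]
      rw [hs]
      exact Submodule.smul_mem _ _ (Submodule.subset_span
        (Finset.mem_coe.2 (Finset.mem_image_of_mem _ ht)))
  exact Module.Finite.trans (MonoidAlgebra ℤ K) _

/-- ROW V2: the group ring of a group with a subgroup `ℤ^h` of finite index. -/
theorem va2' (G : Type) [Group G] (h : ℕ)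
    (hN : ∃ N : Subgroup G, N.FiniteIndex ∧ Nonempty (N ≃* Multiplicative (Fin h → ℤ))) :
    ∃ (A : Type) (_ : CommRing A) (_ : IsNoetherianRing A) (_ : Algebra A (MonoidAlgebra ℤ G)),
      Module.Finite A (MonoidAlgebra ℤ G) ∧
        ∀ p : Ideal A, p.IsPrime → p.height ≤ (h + 1 : ℕ) := by
  classical
  obtain ⟨N, hfi, ⟨e⟩⟩ := hN
  haveI : N.FiniteIndex := hfi
  have hab : ∀ a b : N, a * b = b * a := fun a b => e.injective (by rw [map_mul, map_mul, mul_comm])
  haveI hFG : Group.FG N := by
    haveI : AddGroup.FG (Fin h → ℤ) := by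
      rw [← Module.Finite.iff_addGroup_fg]
      infer_instance
    exact Group.fg_of_surjective (f := e.symm.toMonoidHom) e.symm.surjective
  have hfg : Group.FG N.normalCore := by
    haveI : (N.normalCore.subgroupOf N).FiniteIndex := inferInstance
    haveI : Group.FG (N.normalCore.subgroupOf N) := Subgroup.fg_of_index_ne_zero _
    exact Group.fg_of_surjective
      (f := (Subgroup.subgroupOfEquivOfLe N.normalCore_le).toMonoidHom)
      (Subgroup.subgroupOfEquivOfLe N.normalCore_le).surjective
  have hcom : ∀ a b : N.normalCore, a * b = b * a := fun a b => by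
    have h1 := congrArg Subtype.val (hab ⟨a, N.normalCore_le a.2⟩ ⟨b, N.normalCore_le b.2⟩)
    exact Subtype.ext h1
  letI cg : CommGroup N.normalCore := { (inferInstance : Group N.normalCore) with mul_comm := hcom }
  haveI : Finite (G ⧸ N.normalCore) := inferInstance
  haveI := Fintype.ofFinite (G ⧸ N.normalCore)
  refine va_aux G N.normalCore hfg N.normalCore.subtype Subtype.val_injective MulAut.conjNormal
    (fun g k => MulAut.conjNormal_apply g k)
    (Finset.univ.image (fun q : G ⧸ N.normalCore => q.out)) (fun g => ?_)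
    (Multiplicative (Fin h → ℤ)) (e.toMonoidHom.comp (Subgroup.inclusion N.normalCore_le))
    (e.injective.comp (Subgroup.inclusion_injective _)) N.normalCore.index
    (Nat.pos_of_ne_zero Subgroup.FiniteIndex.index_ne_zero) (fun x => ?_) (h + 1) (dim_laurent h)
  · obtain ⟨h, hh⟩ := QuotientGroup.mk_out_eq_mul N.normalCore g
    refine ⟨⟨g * (h : G)⁻¹ * g⁻¹, ?_⟩, (g : G ⧸ N.normalCore).out, ?_, ?_⟩
    · exact (inferInstance : N.normalCore.Normal).conj_mem _ (N.normalCore.inv_mem h.2) g
    · exact Finset.mem_image_of_mem _ (Finset.mem_univ _)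
    · rw [hh]
      change g = g * (h : G)⁻¹ * g⁻¹ * (g * h)
      group
  · refine ⟨⟨((e.symm x : N) : G) ^ N.normalCore.index,
      Subgroup.pow_index_mem N.normalCore _⟩, ?_⟩
    change e (Subgroup.inclusion N.normalCore_le _) = _
    have h1 : Subgroup.inclusion N.normalCore_le ⟨((e.symm x : N) : G) ^ N.normalCore.index,
      Subgroup.pow_index_mem N.normalCore _⟩ = (e.symm x) ^ N.normalCore.index := by
      apply Subtype.ext
      simp
    rw [h1, map_pow, e.apply_symm_apply]

end Vale.Agent.P246.R2.H888
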