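import Vale.Agent.P246.R2.H429.Defs2
import Vale.Agent.P246.R2.H888.VA2a

/-! # P246: row V2 (SpecVA2) -/

namespace Vale.Agent.P246.R2.H888

open Vale.Agent.P246 Vale.Agent.P246.H429

theorem va2 : SpecVA2 := fun G _ h hN => va2' G h hN

end Vale.Agent.P246.R2.H888
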