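import Vale.Agent.P246.R2.H429.Defs5

/-! # P246: presentation complexes of the same presentation are homeomorphic
(row HOM, helper888) -/

set_option linter.all false

namespace Vale.Agent.P246.R2.H888H

open Topology Metric Set Vale.Agent.P246 Vale.Agent.P246.T Vale.Agent.P246.H429

/-- the disjoint union of the cells -/
abbrev KK (m l : ℕ) : Type := Unit ⊕ (Fin m × Dk 1) ⊕ (Fin l × Dk 2)

/-- the open cells -/
def NN {m l : ℕ} : KK m l → Prop
  | Sum.inl _ => True
  | Sum.inr (Sum.inl q) => ‖(q.2 : Fin 1 → ℝ)‖ < 1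
  | Sum.inr (Sum.inr q) => ‖(q.2 : Fin 2 → ℝ)‖ < 1

section

variable {G X E : Type} [Group G] [TopologicalSpace X] [TopologicalSpace E] [MulAction G E]
  [ContinuousConstSMul G E] {p : C(E, X)} {Pr : FinPresentation G}

/-- the map of the disjoint union of the cells -/
noncomputable def kap (c : PresCx Pr p) : KK Pr.gens Pr.rels → X
  | Sum.inl _ => p c.e
  | Sum.inr (Sum.inl q) => p (c.edge q.1 q.2)
  | Sum.inr (Sum.inr q) => p (c.b q.1 q.2)

theorem continuous_kap (c : PresCx Pr p) : Continuous (kap c) := by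
  rw [continuous_sum_dom]
  refine ⟨continuous_const, ?_⟩
  rw [continuous_sum_dom]
  refine ⟨?_, ?_⟩
  · rw [continuous_prod_of_discrete_left]
    intro i
    exact p.continuous.comp (c.edge i).continuous
  · rw [continuous_prod_of_discrete_left]
    intro j
    exact p.continuous.comp (c.b j).continuous

theorem Y1_mono (c : PresCx Pr p) {k l : ℕ} (h : k ≤ l) : c.Y1 k ⊆ c.Y1 l := by
  refine union_subset_union_right _ ?_
  refine iUnion₂_subset fun i hi => ?_
  exact subset_iUnion₂_of_subset i (lt_of_lt_of_le hi h) subset_rfl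

theorem Y2_mono (c : PresCx Pr p) {k l : ℕ} (h : k ≤ l) : c.Y2 k ⊆ c.Y2 l := by
  refine union_subset_union_right _ ?_
  refine iUnion₂_subset fun i hi => ?_
  exact subset_iUnion₂_of_subset i (lt_of_lt_of_le hi h) subset_rfl

theorem base_mem (c : PresCx Pr p) (k : ℕ) : p c.e ∈ c.Y1 k := Or.inl rfl

theorem edge_mem (c : PresCx Pr p) {i : Fin Pr.gens} {k : ℕ} (h : (i : ℕ) < k) (z : Dk 1) :
    p (c.edge i z) ∈ c.Y1 k := Or.inr (mem_iUnion₂.2 ⟨i, h, z, rfl⟩)

theorem Y1_sub_Y2 (c : PresCx Pr p) (k : ℕ) : c.Y1 Pr.gens ⊆ c.Y2 k := subset_union_left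

theorem face_mem (c : PresCx Pr p) {j : Fin Pr.rels} {k : ℕ} (h : (j : ℕ) < k) (z : Dk 2) :
    p (c.b j z) ∈ c.Y2 k := Or.inr (mem_iUnion₂.2 ⟨j, h, z, rfl⟩)

theorem range_kap (c : PresCx Pr p) : range (kap c) = c.Y := by
  apply subset_antisymm
  · rintro _ ⟨u, rfl⟩
    rcases u with u | ⟨i, z⟩ | ⟨j, z⟩
    · exact Y1_sub_Y2 c _ (base_mem c _)
    · exact Y1_sub_Y2 c _ (edge_mem c i.2 z)
    · exact face_mem c j.2 z
  · rintro y ((hy | hy) | hy)
    · exact ⟨Sum.inl (), hy.symm⟩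
    · obtain ⟨i, -, z, rfl⟩ := mem_iUnion₂.1 hy
      exact ⟨Sum.inr (Sum.inl (i, z)), rfl⟩
    · obtain ⟨j, -, z, rfl⟩ := mem_iUnion₂.1 hy
      exact ⟨Sum.inr (Sum.inr (j, z)), rfl⟩

/-- the map is injective on the open cells -/
theorem kap_inj (c : PresCx Pr p) (hc : c.Good) {u v : KK Pr.gens Pr.rels} (hu : NN u) (hv : NN v)
    (h : kap c u = kap c v) : u = v := by
  have e1 : ∀ (i : Fin Pr.gens) (z : Dk 1), ‖(z : Fin 1 → ℝ)‖ < 1 → p c.e ≠ p (c.edge i z) := by
    intro i z hz he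
    exact (hc.att1 i).int z hz (he ▸ base_mem c _)
  have e2 : ∀ (j : Fin Pr.rels) (z : Dk 2), ‖(z : Fin 2 → ℝ)‖ < 1 →
      ∀ y ∈ c.Y1 Pr.gens, y ≠ p (c.b j z) := by
    intro j z hz y hy he
    exact (hc.att2 j).int z hz (he ▸ Y1_sub_Y2 c _ hy)
  have e3 : ∀ (i i' : Fin Pr.gens) (z z' : Dk 1), i < i' → ‖(z' : Fin 1 → ℝ)‖ < 1 →
      p (c.edge i z) ≠ p (c.edge i' z') := by
    intro i i' z z' hi hz he
    exact (hc.att1 i').int z' hz (he ▸ edge_mem c hi z)
  have e4 : ∀ (i i' : Fin Pr.rels) (z z' : Dk 2), i < i' → ‖(z' : Fin 2 → ℝ)‖ < 1 →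
      p (c.b i z) ≠ p (c.b i' z') := by
    intro i i' z z' hi hz he
    exact (hc.att2 i').int z' hz (he ▸ face_mem c hi z)
  rcases u with u | ⟨i, z⟩ | ⟨j, z⟩ <;> rcases v with v | ⟨i', z'⟩ | ⟨j', z'⟩
  · rfl
  · exact absurd h (e1 i' z' hv)
  · exact absurd h (e2 j' z' hv _ (base_mem c _))
  · exact absurd h.symm (e1 i z hu)
  · rcases lt_trichotomy i i' with hi | hi | hi
    · exact absurd h (e3 i i' z z' hi hv)
    · subst hi
      rw [(hc.att1 i).inj z z' hu hv h]
    · exact absurd h.symm (e3 i' i z' z hi hu)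
  · exact absurd h (e2 j' z' hv _ (edge_mem c i.2 z))
  · exact absurd h.symm (e2 j z hu _ (base_mem c _))
  · exact absurd h.symm (e2 j z hu _ (edge_mem c i'.2 z'))
  · rcases lt_trichotomy j j' with hi | hi | hi
    · exact absurd h (e4 j j' z z' hi hv)
    · subst hi
      rw [(hc.att2 j).inj z z' hu hv h]
    · exact absurd h.symm (e4 j' j z' z hi hu)

end

/-! two complexes of the same presentation at the same time -/

section

variable {G X E X' E' : Type} [Group G] [TopologicalSpace X] [TopologicalSpace E] [MulAction G E]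
  [ContinuousConstSMul G E] {p : C(E, X)} [TopologicalSpace X'] [TopologicalSpace E']
  [MulAction G E'] [ContinuousConstSMul G E'] {p' : C(E', X')} {Pr : FinPresentation G}

/-- `y` and `y'` are the images of the same point of an open cell -/
def Same (c : PresCx Pr p) (c' : PresCx Pr p') (y : X) (y' : X') : Prop :=
  ∃ u : KK Pr.gens Pr.rels, NN u ∧ kap c u = y ∧ kap c' u = y'

theorem same_base (c : PresCx Pr p) (c' : PresCx Pr p') : Same c c' (p c.e) (p' c'.e) :=
  ⟨Sum.inl (), trivial, rfl, rfl⟩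

theorem same_a (hp : IsQuotientCoveringMap p G) (hp' : IsQuotientCoveringMap p' G)
    (c : PresCx Pr p) (c' : PresCx Pr p') (i : Fin Pr.gens) (s : I) :
    Same c c' (p (c.a i s)) (p' (c'.a i s)) := by
  by_cases h0 : s = 0
  · subst h0
    rw [Path.source, Path.source]
    exact same_base c c'
  by_cases h1 : s = 1
  · subst h1
    rw [Path.target, Path.target, hp.map_smul, hp'.map_smul]
    exact same_base c c'
  have hs0 : 0 < (s : ℝ) := lt_of_le_of_ne s.2.1 fun h => h0 (Subtype.ext h.symm)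
  have hs1 : (s : ℝ) < 1 := lt_of_le_of_ne s.2.2 fun h => h1 (Subtype.ext h)
  have hn : ‖(fun _ => 2 * (s : ℝ) - 1 : Fin 1 → ℝ)‖ < 1 := by
    rw [pi_norm_const, Real.norm_eq_abs, abs_lt]
    constructor <;> linarith
  have hpar : par (2 * (s : ℝ) - 1) = s := by
    unfold par
    have e1 : (2 * (s : ℝ) - 1 + 1) / 2 = s := by ring
    rw [e1]
    exact projIcc_val zero_le_one s
  refine ⟨Sum.inr (Sum.inl (i, ⟨fun _ => 2 * (s : ℝ) - 1, ?_⟩)), hn, ?_, ?_⟩
  · rw [mem_closedBall_zero_iff]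
    exact hn.le
  · change p (c.a i (par (2 * (s : ℝ) - 1))) = _
    rw [hpar]
  · change p' (c'.a i (par (2 * (s : ℝ) - 1))) = _
    rw [hpar]

theorem same_l (hp : IsQuotientCoveringMap p G) (hp' : IsQuotientCoveringMap p' G)
    (c : PresCx Pr p) (c' : PresCx Pr p') (l : Fin Pr.gens × Bool) (s : I) :
    Same c c' (p (lpath Pr.x c.a l s)) (p' (lpath Pr.x c'.a l s)) := by
  rcases l with ⟨i, b⟩
  cases b with
  | true => exact same_a hp hp' c c' i s
  | false =>
    have h1 : lpath Pr.x c.a (i, false) s = (Pr.x i)⁻¹ • (c.a i) (unitInterval.symm s) := rfl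
    have h2 : lpath Pr.x c'.a (i, false) s = (Pr.x i)⁻¹ • (c'.a i) (unitInterval.symm s) := rfl
    rw [h1, h2, hp.map_smul, hp'.map_smul]
    exact same_a hp hp' c c' i _

theorem same_w (hp : IsQuotientCoveringMap p G) (hp' : IsQuotientCoveringMap p' G)
    (c : PresCx Pr p) (c' : PresCx Pr p') (w : List (Fin Pr.gens × Bool)) (s : I) :
    Same c c' (p (wpath Pr.x c.a w s)) (p' (wpath Pr.x c'.a w s)) := by
  induction w generalizing s with
  | nil => exact same_base c c'
  | cons l w ih =>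
    have h1 : wpath Pr.x c.a (l :: w) s =
        ((lpath Pr.x c.a l).trans (gpath (lval Pr.x l) (wpath Pr.x c.a w))) s := rfl
    have h2 : wpath Pr.x c'.a (l :: w) s =
        ((lpath Pr.x c'.a l).trans (gpath (lval Pr.x l) (wpath Pr.x c'.a w))) s := rfl
    rw [h1, h2, Path.trans_apply, Path.trans_apply]
    split_ifs with h
    · exact same_l hp hp' c c' l _
    · have h3 : ∀ t : I, gpath (lval Pr.x l) (wpath Pr.x c.a w) t =
          lval Pr.x l • wpath Pr.x c.a w t := fun t => rfl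
      have h4 : ∀ t : I, gpath (lval Pr.x l) (wpath Pr.x c'.a w) t =
          lval Pr.x l • wpath Pr.x c'.a w t := fun t => rfl
      rw [h3, h4, hp.map_smul, hp'.map_smul]
      exact ih _

theorem same_all (hp : IsQuotientCoveringMap p G) (hp' : IsQuotientCoveringMap p' G)
    (c : PresCx Pr p) (c' : PresCx Pr p') (u : KK Pr.gens Pr.rels) :
    Same c c' (kap c u) (kap c' u) := by
  rcases u with u | ⟨i, z⟩ | ⟨j, z⟩
  · exact same_base c c'
  · exact same_a hp hp' c c' i _
  · by_cases hz : ‖(z : Fin 2 → ℝ)‖ < 1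
    · exact ⟨Sum.inr (Sum.inr (j, z)), hz, rfl, rfl⟩
    · have hz1 : ‖(z : Fin 2 → ℝ)‖ = 1 := le_antisymm (mem_closedBall_zero_iff.1 z.2) (not_lt.1 hz)
      change Same c c' (p (c.b j z)) (p' (c'.b j z))
      by_cases h0 : (z : Fin 2 → ℝ) 0 = 1
      · rw [(c.bdry j z hz1).1 h0, (c'.bdry j z hz1).1 h0]
        exact same_w hp hp' c c' _ _
      · rw [(c.bdry j z hz1).2 h0, (c'.bdry j z hz1).2 h0]
        exact same_base c c'

theorem ker_le (hp : IsQuotientCoveringMap p G) (hp' : IsQuotientCoveringMap p' G)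
    (c : PresCx Pr p) (c' : PresCx Pr p') (hc : c.Good) {u v : KK Pr.gens Pr.rels}
    (h : kap c u = kap c v) : kap c' u = kap c' v := by
  obtain ⟨u1, hu1, hu2, hu3⟩ := same_all hp hp' c c' u
  obtain ⟨v1, hv1, hv2, hv3⟩ := same_all hp hp' c c' v
  have e : u1 = v1 := kap_inj c hc hu1 hv1 (by rw [hu2, hv2, h])
  rw [← hu3, ← hv3, e]

end

section

variable {G X E : Type} [Group G] [TopologicalSpace X] [TopologicalSpace E] [MulAction G E]
  [ContinuousConstSMul G E] {p : C(E, X)} {Pr : FinPresentation G}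

theorem kap_mem (c : PresCx Pr p) (u : KK Pr.gens Pr.rels) : kap c u ∈ c.Y := by
  rw [← range_kap]
  exact ⟨u, rfl⟩

/-- the map onto the complex -/
noncomputable def kapY (c : PresCx Pr p) : C(KK Pr.gens Pr.rels, c.Y) :=
  ⟨fun u => ⟨kap c u, kap_mem c u⟩, (continuous_kap c).subtype_mk (kap_mem c)⟩

theorem quot [T2Space X] (c : PresCx Pr p) : IsQuotientMap (kapY c) := by
  refine IsClosedMap.isQuotientMap (kapY c).continuous.isClosedMap (kapY c).continuous ?_
  rintro ⟨y, hy⟩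
  have hy' := hy
  rw [← range_kap] at hy'
  obtain ⟨u, hu⟩ := hy'
  exact ⟨u, Subtype.ext hu⟩

end

/-- **ROW HOM.** -/
theorem main : SpecHom := by
  intro G X E X' E' _ _ _ _ _ _ p _ _ _ _ _ p' hp hp' Pr c c' hc hc'
  have hk : Setoid.ker (kapY c) = Setoid.ker (kapY c') := by
    ext u v
    rw [Setoid.ker_def, Setoid.ker_def, Subtype.ext_iff, Subtype.ext_iff]
    exact ⟨fun h => ker_le hp hp' c c' hc h, fun h => ker_le hp' hp c' c hc' h⟩
  have e1 := (quot c).homeomorph
  have e2 := (quot c').homeomorph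
  rw [hk] at e1
  exact ⟨e1.symm.trans e2⟩

end Vale.Agent.P246.R2.H888H
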